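import Vale.Agent.P069.SpaceMid
import Vale.Agent.P069.SpaceTree

/-!
# P069: a reflexive AMUC Banach space with no equivalent AUC norm

The space is the `ℓ²`-sum over `n` of the spaces `En n`, where `En n` is `ℓ²` over the countably
branching tree `List ℕ`, renormed by the norm whose dual unit ball consists of all `f` with
`ℓ²`-norm at most one all of whose branch sums down to level `n` are at most one in absolute value.
-/

namespace Vale.Agent.Results.P069.Counterexample

open Vale.Agent.P069

/-- There is a reflexive infinite-dimensional real Banach space whose norm is asymptotically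
midpoint uniformly convex (so it is AMUC renormable) but which has no equivalent asymptotically
uniformly convex norm. -/
theorem result :
    ∃ (X : Type) (_ : NormedAddCommGroup X) (_ : NormedSpace ℝ X),
      CompleteSpace X ∧ ¬ FiniteDimensional ℝ X ∧ IsReflexive X ∧
        IsAMUC (normSeminorm ℝ X) ∧ AMUCRenormable X ∧ ¬ AUCRenormable X := by
  have hM : IsAMUC (normSeminorm ℝ XX) := (midProp_lp midProp_En).isAMUC
  refine ⟨XX, inferInstance, inferInstance, inferInstance, not_finiteDimensional_XX,
    isReflexive_lp_two isReflexive_En, hM, ⟨normSeminorm ℝ XX, ⟨1, 1, one_pos, one_pos, ?_⟩, hM⟩,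
    not_aucRenormable_XX⟩
  intro x
  simp

end Vale.Agent.Results.P069.Counterexample
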