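import Vale.Agent.P069.SpaceMid
import Vale.Agent.P069.SpaceTree
import Vale.Agent.P069.QuantIff

/-!
# P069: a reflexive AMUC Banach space with no equivalent AUC norm, in explicit quantifier form

Positivity of the moduli `m_N(t)` and `delta-bar_N(t)` is spelled out with quantifiers, so that the
statement uses Mathlib notions only.
-/

namespace Vale.Agent.Results.P069.CounterexampleExplicit

open Vale.Agent.P069

/-- There is a reflexive infinite-dimensional real Banach space `X` such that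
(1) the norm of `X` is AMUC: for every `t > 0` there is `d > 0` such that every `x` of norm one
admits a closed finite-codimensional subspace `F` with `max ‖x + t y‖ ‖x - t y‖ ≥ 1 + d` for all
`y ∈ F` of norm one;
(2) no equivalent norm `N` on `X` is AUC. -/
theorem result :
    ∃ (X : Type) (_ : NormedAddCommGroup X) (_ : NormedSpace ℝ X),
      CompleteSpace X ∧ ¬ FiniteDimensional ℝ X ∧
      Function.Surjective (NormedSpace.inclusionInDoubleDual ℝ X) ∧
      (∀ t : ℝ, 0 < t → ∃ d : ℝ, 0 < d ∧ ∀ x : X, ‖x‖ = 1 →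
        ∃ F : Submodule ℝ X, IsClosed (F : Set X) ∧ FiniteDimensional ℝ (X ⧸ F) ∧
          ∀ y ∈ F, ‖y‖ = 1 → 1 + d ≤ max ‖x + t • y‖ ‖x - t • y‖) ∧
      (∀ N : Seminorm ℝ X,
        (∃ c C : ℝ, 0 < c ∧ 0 < C ∧ ∀ x : X, c * ‖x‖ ≤ N x ∧ N x ≤ C * ‖x‖) →
        ¬ ∀ t : ℝ, 0 < t → ∃ d : ℝ, 0 < d ∧ ∀ x : X, N x = 1 →
          ∃ F : Submodule ℝ X, IsClosed (F : Set X) ∧ FiniteDimensional ℝ (X ⧸ F) ∧
            ∀ y ∈ F, N y = 1 → 1 + d ≤ N (x + t • y)) := by
  have hM : IsAMUC (normSeminorm ℝ XX) := (midProp_lp midProp_En).isAMUC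
  refine ⟨XX, inferInstance, inferInstance, inferInstance, not_finiteDimensional_XX,
    isReflexive_lp_two isReflexive_En, ?_, ?_⟩
  · intro t ht
    obtain ⟨d, hd, H⟩ := hM.forall t ht
    refine ⟨d, hd, fun x hx => ?_⟩
    obtain ⟨F, hF, HF⟩ := H x hx
    exact ⟨F, hF.1, hF.2, HF⟩
  · intro N hN hauc
    refine not_aucRenormable_XX ⟨N, hN, isAUC_of_forall N fun t ht => ?_⟩
    obtain ⟨d, hd, H⟩ := hauc t ht
    refine ⟨d, hd, fun x hx => ?_⟩
    obtain ⟨F, hF1, hF2, HF⟩ := H x hx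
    exact ⟨F, ⟨hF1, hF2⟩, HF⟩

end Vale.Agent.Results.P069.CounterexampleExplicit
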