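import Vale.Agent.P069.SpaceMid
import Vale.Agent.P069.SpaceTree

/-!
# P069: the statement of Q1 is false, with a midpoint modulus of power type two

The first part is the negation of the sentence of Q1, quantified over all real Banach spaces.
The second part gives the witness with an explicit lower bound for its midpoint modulus.
-/

namespace Vale.Agent.Results.P069.DisproofPowerType

open Vale.Agent.P069

/-- Explicit form of the midpoint inequality for a space with `MidProp`. -/
theorem explicit_of_midProp {X : Type*} [NormedAddCommGroup X] [NormedSpace ℝ X] (h : MidProp X)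
    (t : ℝ) (ht : 0 < t) (x : X) (hx : ‖x‖ = 1) :
    ∃ F ∈ cof X, ∀ y ∈ F, ‖y‖ = 1 →
      1 + min 1 (t ^ 2 / 288) ≤ max ‖x + t • y‖ ‖x - t • y‖ := by
  obtain ⟨c, hc⟩ : ∃ c : ℝ, c = min 1 (t ^ 2 / 288) := ⟨_, rfl⟩
  have hc0 : 0 < c := by rw [hc]; positivity
  have hc1 : c ≤ 1 := by rw [hc]; exact min_le_left _ _
  have hc2 : c ≤ t ^ 2 / 288 := by rw [hc]; exact min_le_right _ _
  rw [← hc]
  obtain ⟨x', hx', F, hF, HF⟩ := h x c hc0
  refine ⟨F, hF, fun y hy hy1 => ?_⟩
  have key := HF (t • y) (F.smul_mem t hy)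
  rw [norm_smul, hy1, mul_one, Real.norm_eq_abs, sq_abs] at key
  by_contra hcon
  rw [not_le] at hcon
  have h1 : ‖x + t • y‖ < 1 + c := lt_of_le_of_lt (le_max_left _ _) hcon
  have h2 : ‖x - t • y‖ < 1 + c := lt_of_le_of_lt (le_max_right _ _) hcon
  have h3 : ‖x' + t • y‖ ≤ ‖x + t • y‖ + c := by
    have e : x' + t • y = (x + t • y) - (x - x') := by abel
    rw [e]
    exact le_trans (norm_sub_le _ _) (by linarith)
  have h4 : ‖x' - t • y‖ ≤ ‖x - t • y‖ + c := by
    have e : x' - t • y = (x - t • y) - (x - x') := by abel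
    rw [e]
    exact le_trans (norm_sub_le _ _) (by linarith)
  have h5 : 1 - c ≤ ‖x'‖ := by
    have e : x = x' + (x - x') := by abel
    have := norm_add_le x' (x - x')
    rw [← e, hx] at this
    linarith
  have h6 : ‖x' + t • y‖ ^ 2 ≤ (1 + 2 * c) ^ 2 :=
    pow_le_pow_left₀ (norm_nonneg _) (by linarith) 2
  have h7 : ‖x' - t • y‖ ^ 2 ≤ (1 + 2 * c) ^ 2 :=
    pow_le_pow_left₀ (norm_nonneg _) (by linarith) 2
  have h8 : (1 - c) ^ 2 ≤ ‖x'‖ ^ 2 := pow_le_pow_left₀ (by linarith) h5 2
  have h9 : t ^ 2 / 16 ≤ 6 * c + 3 * c ^ 2 := by nlinarith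
  have h10 : 3 * c ^ 2 ≤ 3 * c := by nlinarith
  have h11 : 0 < t ^ 2 := by positivity
  linarith

/-- (1) It is false that every reflexive (infinite-dimensional, real) Banach space which is AMUC
renormable is AUC renormable. (2) More precisely there is a reflexive infinite-dimensional real
Banach space `X` whose own norm has midpoint modulus `m(t) ≥ min 1 (t ^ 2 / 288)` for all `t > 0`
(power type two), and such that every equivalent norm `N` on `X` has `delta-bar_N(t) ≤ 0` for
some `t > 0`. -/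
theorem result :
    (¬ ∀ (X : Type) [NormedAddCommGroup X] [NormedSpace ℝ X] [CompleteSpace X],
        ¬ FiniteDimensional ℝ X → IsReflexive X → AMUCRenormable X → AUCRenormable X) ∧
    ∃ (X : Type) (_ : NormedAddCommGroup X) (_ : NormedSpace ℝ X),
      CompleteSpace X ∧ ¬ FiniteDimensional ℝ X ∧ IsReflexive X ∧
        (∀ t : ℝ, 0 < t →
          ((min 1 (t ^ 2 / 288) : ℝ) : EReal) ≤ amucModulus (normSeminorm ℝ X) t) ∧
        (∀ N : Seminorm ℝ X, IsEquivalentNorm N → ∃ t : ℝ, 0 < t ∧ aucModulus N t ≤ 0) := by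
  have hP : MidProp XX := midProp_lp midProp_En
  have hM : IsAMUC (normSeminorm ℝ XX) := hP.isAMUC
  have hE : IsEquivalentNorm (normSeminorm ℝ XX) := by
    refine ⟨1, 1, one_pos, one_pos, ?_⟩
    intro x
    simp
  refine ⟨?_, XX, inferInstance, inferInstance, inferInstance, not_finiteDimensional_XX,
    isReflexive_lp_two isReflexive_En, ?_, ?_⟩
  · intro H
    exact not_aucRenormable_XX
      (H XX not_finiteDimensional_XX (isReflexive_lp_two isReflexive_En) ⟨_, hE, hM⟩)
  · intro t ht
    refine le_iInf₂ fun x hx => ?_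
    obtain ⟨F, hF, HF⟩ := explicit_of_midProp hP t ht x hx
    refine le_iSup₂_of_le F hF (le_iInf₂ fun y hy => ?_)
    have := HF y hy.1 hy.2
    refine EReal.coe_le_coe_iff.2 ?_
    simp only [coe_normSeminorm]
    linarith
  · intro N hN
    by_contra hcon
    refine not_aucRenormable_XX ⟨N, hN, fun t ht => ?_⟩
    by_contra hlt
    exact hcon ⟨t, ht, not_lt.1 hlt⟩

end Vale.Agent.Results.P069.DisproofPowerType
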